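import Crest.Agent.R18.Loc

/-! Row 18 block W2: finitely many characters of exponent `ℓ` are unramified outside `ℓ`. -/

set_option autoImplicit false
set_option linter.unusedSectionVars false
open scoped Pointwise NumberField
open IsDedekindDomain Crest.NumberTheoryR

namespace Crest.Agent.R18.W2

variable {F E : Type*} [Field F] [NumberField F] [Field E] [Algebra F E] [IsGalois F E]

theorem finite_unr (hE : IsSolvablyClosed E) (U : Subgroup (E ≃ₐ[F] E))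
    (hU : IsOpen (U : Set (E ≃ₐ[F] E))) {ℓ : ℕ} (hℓ : ℓ.Prime) (k : ℕ) :
    {η : (E ≃ₐ[F] E) → ZMod (ℓ ^ k) | IsChar U η ∧ (∀ g, g ∉ U → η g = 0) ∧
      ∀ (A : ValuationSubring E) (p : ℕ), Over A p → p ≠ ℓ → ∀ i ∈ U, Inert A i →
        η i = 0}.Finite := by
  classical
  have := cz F E
  have hm : 0 < ℓ ^ k := pow_pos hℓ.pos k
  have : NeZero (ℓ ^ k) := ⟨hm.ne'⟩
  obtain ⟨ξ, hξ⟩ := sc_prim hE hm
  obtain ⟨W, -, hWo, hWf⟩ := exists_open_fix (F := F) {ξ} (Set.finite_singleton ξ)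
  set V := U ⊓ W with hV
  have hVo : IsOpen (V : Set (E ≃ₐ[F] E)) := hU.inter hWo
  have hVξ : Fix V ξ := fun g hg => hWf ξ rfl g hg.2
  have := finiteIndex_of_open V hVo
  obtain ⟨T, -, hT⟩ := sel V hVo hm hℓ
  set P : E → ((E ≃ₐ[F] E) → ZMod (ℓ ^ k)) → Prop := fun t η =>
    ∃ w : E, w ≠ 0 ∧ w ^ (ℓ ^ k) = t ∧ ∀ g ∈ V, g w = ξ ^ (η g).val * w with hP
  have hfin : (⋃ t ∈ T, ⋃ v : (E ≃ₐ[F] E) ⧸ V → ZMod (ℓ ^ k),
      {η | (IsChar U η ∧ ∀ g, g ∉ U → η g = 0) ∧ P t η ∧ ∀ c, η c.out = v c}).Finite := by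
    refine T.finite_toSet.biUnion fun t _ => Set.finite_iUnion fun v => Set.Subsingleton.finite ?_
    rintro η ⟨⟨h1, h2⟩, ⟨w, hw0, hw, hg⟩, h3⟩ η' ⟨⟨k1, k2⟩, ⟨w', hw0', hw', hg'⟩, k3⟩
    have hVeq : ∀ g ∈ V, η g = η' g := by
      intro g hgV
      have e1 : (w / w') ^ (ℓ ^ k) = 1 := by
        rw [div_pow, hw, hw', div_self]
        rw [← hw]; exact pow_ne_zero _ hw0
      obtain ⟨j, -, hj⟩ := hξ.eq_pow_of_pow_eq_one e1
      have e2 : g (w / w') = w / w' := by rw [← hj, map_pow, hVξ g hgV]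
      rw [map_div₀, hg g hgV, hg' g hgV] at e2
      have hξ0 : ξ ≠ 0 := hξ.ne_zero hm.ne'
      have e3 : ξ ^ (η g).val = ξ ^ (η' g).val := by
        field_simp at e2
        exact e2
      exact ZMod.val_injective _ (hξ.pow_inj (ZMod.val_lt _) (ZMod.val_lt _) e3)
    funext g
    by_cases hgU : g ∈ U
    · obtain ⟨u, hu⟩ := QuotientGroup.mk_out_eq_mul V g
      have hu1 : (u : E ≃ₐ[F] E) ∈ U := u.2.1
      have e1 := h3 (g : (E ≃ₐ[F] E) ⧸ V)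
      have e2 := k3 (g : (E ≃ₐ[F] E) ⧸ V)
      rw [hu] at e1 e2
      rw [h1.1 g hgU u hu1] at e1
      rw [k1.1 g hgU u hu1, ← hVeq u u.2, ← e1] at e2
      exact (add_right_cancel e2).symm
    · rw [h2 g hgU, k2 g hgU]
  refine hfin.subset ?_
  rintro η ⟨h1, h2, h3⟩
  obtain ⟨z, hz0, hz, hg⟩ := kummer_surj V hVo ξ hξ hVξ η (h1.mono inf_le_left)
  obtain ⟨t, ht, y, hy, hzy⟩ := hT (z ^ (ℓ ^ k)) (pow_ne_zero _ hz0) hz fun A p hA hp => by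
    obtain ⟨σ₀, f, hσ₀, -, hF, -⟩ := exists_minFrob V hVo hA
    obtain ⟨σ, -, τ, hτ, -, hI, -, -, hT⟩ := loc hE V hVo hℓ hA hp hσ₀ hF
    obtain ⟨y, hy, hv⟩ := hT V le_rfl hVo hτ z k hz0 hz (by
      rw [hg τ hτ, h3 A p hA hp τ hτ.1 hI]; simp)
    exact ⟨y, hy, by rw [map_pow, map_pow, hv]⟩
  have hy0 : y ≠ 0 := by
    rintro rfl
    rw [zero_pow hm.ne', mul_zero] at hzy
    exact pow_ne_zero _ hz0 hzy
  simp only [Set.mem_iUnion]
  refine ⟨t, ht, fun c => η c.out, ⟨h1, h2⟩, ⟨z / y, div_ne_zero hz0 hy0, ?_, fun g hgV => ?_⟩,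
    fun _ => rfl⟩
  · rw [div_pow, hzy, mul_div_assoc, div_self (pow_ne_zero _ hy0), mul_one]
  · rw [map_div₀, hg g hgV, hy g hgV, mul_div_assoc]

end Crest.Agent.R18.W2
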