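import Crest.Agent.R18.Defs

/-! Row 18 block W2: passing from finite levels to a `ℤ_[ℓ]`-character. -/

set_option autoImplicit false
set_option linter.unusedSectionVars false

namespace Crest.Agent.R18.W2

open PadicInt

variable {G : Type*} [Group G] [TopologicalSpace G] {s : ℕ} {U U' : Subgroup G} {ρ : G → ZMod s}
  {I : G → Prop}

/-- equivariant characters killing `I` -/
def WP {R : Type*} [CommRing R] [TopologicalSpace R] (U U' : Subgroup G) (ρ : G → ZMod s) (c : R)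
    (I : G → Prop) (η : G → R) : Prop :=
  IsChar U' η ∧ Equi U U' ρ c η ∧ (∀ g, g ∉ U' → η g = 0) ∧ ∀ i, I i → η i = 0

section
variable {R R' : Type*} [CommRing R] [TopologicalSpace R] [DiscreteTopology R] [CommRing R']
  [TopologicalSpace R'] [DiscreteTopology R'] {c : R} {c' : R'}

theorem map_pow_mul (f : R →+ R') (hf : ∀ x, f (c * x) = c' * f x) (n : ℕ) (x : R) :
    f (c ^ n * x) = c' ^ n * f x := by
  induction n with
  | zero => simp
  | succ n ih => rw [pow_succ', pow_succ', mul_assoc, hf, ih, mul_assoc]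

theorem WP.map {η : G → R} (h : WP U U' ρ c I η) (f : R →+ R') (hf : ∀ x, f (c * x) = c' * f x) :
    WP U U' ρ c' I (fun g => f (η g)) := by
  obtain ⟨⟨h1, h2⟩, h3, h4, h5⟩ := h
  refine ⟨⟨fun x hx y hy => ?_, continuous_of_discreteTopology.comp_continuousOn h2⟩,
    fun δ hδ g hg => ?_, fun g hg => ?_, fun i hi => ?_⟩
  · simp only [h1 x hx y hy, map_add]
  · simp only [h3 δ hδ g hg, map_pow_mul f hf]
  · simp only [h4 g hg, map_zero]
  · simp only [h5 i hi, map_zero]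

theorem WP.comap {η : G → R} (f : R →+ R') (hf : ∀ x, f (c * x) = c' * f x)
    (hi : Function.Injective f) (h : WP U U' ρ c' I (fun g => f (η g))) : WP U U' ρ c I η := by
  obtain ⟨⟨h1, h2⟩, h3, h4, h5⟩ := h
  refine ⟨⟨fun x hx y hy => hi ?_, ?_⟩, fun δ hδ g hg => hi ?_, fun g hg => hi ?_,
    fun i hi' => hi ?_⟩
  · rw [map_add]; exact h1 x hx y hy
  · have e : η = Function.invFun f ∘ fun g => f (η g) :=
      funext fun g => (Function.leftInverse_invFun hi (η g)).symm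
    rw [e]
    exact continuous_of_discreteTopology.comp_continuousOn h2
  · rw [map_pow_mul f hf]; exact h3 δ hδ g hg
  · rw [map_zero]; exact h4 g hg
  · rw [map_zero]; exact h5 i hi'

theorem WP.sub {η η' : G → R} (h : WP U U' ρ c I η) (h' : WP U U' ρ c I η') :
    WP U U' ρ c I (η - η') := by
  obtain ⟨⟨h1, h2⟩, h3, h4, h5⟩ := h
  obtain ⟨⟨k1, k2⟩, k3, k4, k5⟩ := h'
  refine ⟨⟨fun x hx y hy => ?_, ?_⟩, fun δ hδ g hg => ?_, fun g hg => ?_, fun i hi => ?_⟩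
  · simp only [Pi.sub_apply, h1 x hx y hy, k1 x hx y hy]; ring
  · exact (continuous_of_discreteTopology (f := fun p : R × R => p.1 - p.2)).comp_continuousOn
      (h2.prodMk k2)
  · simp only [Pi.sub_apply, h3 δ hδ g hg, k3 δ hδ g hg]; ring
  · simp [h4 g hg, k4 g hg]
  · simp [h5 i hi, k5 i hi]

end

variable {ℓ : ℕ} [hℓ : Fact ℓ.Prime]

theorem toZModPow_val {a b : ℕ} (h : a ≤ b) (ζ : ℤ_[ℓ]) :
    toZModPow a ζ = ((toZModPow b ζ).val : ZMod (ℓ ^ a)) := by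
  have : NeZero (ℓ ^ b) := ⟨pow_ne_zero _ hℓ.out.ne_zero⟩
  rw [ZMod.natCast_val, cast_toZModPow a b h]

theorem compat {a b : ℕ} (ζ : ℤ_[ℓ]) (f : ZMod (ℓ ^ a) →+ ZMod (ℓ ^ b)) (x : ZMod (ℓ ^ a)) :
    f (toZModPow a ζ * x) = toZModPow b ζ * f x := by
  rw [toZModPow_val (le_max_left a b), toZModPow_val (le_max_right a b), ← nsmul_eq_mul,
    ← nsmul_eq_mul, map_nsmul]

/-- reduction -/
def red (ℓ : ℕ) {a b : ℕ} (h : a ≤ b) : ZMod (ℓ ^ b) →+ ZMod (ℓ ^ a) :=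
  (ZMod.castHom (pow_dvd_pow ℓ h) (ZMod (ℓ ^ a))).toAddMonoidHom

theorem red_toZModPow {a b : ℕ} (h : a ≤ b) (x : ℤ_[ℓ]) :
    red ℓ h (toZModPow b x) = toZModPow a x := cast_toZModPow a b h x

theorem red_int {a b : ℕ} (h : a ≤ b) (n : ℤ) : red ℓ h (n : ZMod (ℓ ^ b)) = n :=
  map_intCast (ZMod.castHom (pow_dvd_pow ℓ h) (ZMod (ℓ ^ a))) n

theorem red_red {a b c : ℕ} (h : a ≤ b) (h' : b ≤ c) (x : ZMod (ℓ ^ c)) :
    red ℓ h (red ℓ h' x) = red ℓ (h.trans h') x := by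
  obtain ⟨n, rfl⟩ := ZMod.intCast_surjective x
  rw [red_int, red_int, red_int]

/-- multiplication by `ℓ` -/
theorem exists_mul (k : ℕ) : ∃ f : ZMod (ℓ ^ k) →+ ZMod (ℓ ^ (k + 1)), Function.Injective f ∧
    ∀ y, red ℓ (Nat.le_add_left 1 k) y = 0 → ∃ x, f x = y := by
  refine ⟨ZMod.lift (ℓ ^ k) ⟨zmultiplesHom _ (ℓ : ZMod (ℓ ^ (k + 1))), ?_⟩, ?_, ?_⟩
  · have : ((ℓ ^ (k + 1) : ℕ) : ZMod (ℓ ^ (k + 1))) = 0 := ZMod.natCast_self _
    rw [Nat.cast_pow] at this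
    simp [← pow_succ, this]
  · rw [injective_iff_map_eq_zero]
    intro x hx
    obtain ⟨n, rfl⟩ := ZMod.intCast_surjective x
    rw [ZMod.lift_coe] at hx
    have h1 : ((n * ℓ : ℤ) : ZMod (ℓ ^ (k + 1))) = 0 := by simpa using hx
    rw [ZMod.intCast_zmod_eq_zero_iff_dvd] at h1 ⊢
    push_cast at h1 ⊢
    rw [pow_succ] at h1
    exact (mul_dvd_mul_iff_right (by exact_mod_cast hℓ.out.ne_zero)).1 h1
  · intro y hy
    obtain ⟨n, rfl⟩ := ZMod.intCast_surjective y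
    rw [red_int, ZMod.intCast_zmod_eq_zero_iff_dvd] at hy
    obtain ⟨m, rfl⟩ := hy
    refine ⟨m, ?_⟩
    rw [ZMod.lift_coe]
    simp [mul_comm]

/-- characters that vanish modulo `ℓ` come from the previous level -/
theorem exists_div (ζ : ℤ_[ℓ]) (k : ℕ) :
    ∃ Φ : (G → ZMod (ℓ ^ k)) → (G → ZMod (ℓ ^ (k + 1))), ∀ η : G → ZMod (ℓ ^ (k + 1)),
      WP U U' ρ (toZModPow (k + 1) ζ) I η → (∀ g, red ℓ (Nat.le_add_left 1 k) (η g) = 0) →
      ∃ η', WP U U' ρ (toZModPow k ζ) I η' ∧ Φ η' = η := by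
  obtain ⟨f, hf, hf'⟩ := exists_mul (ℓ := ℓ) k
  refine ⟨fun η g => f (η g), fun η h h0 => ?_⟩
  choose η' hη' using fun g => hf' (η g) (h0 g)
  have e : (fun g => f (η' g)) = η := funext hη'
  exact ⟨η', WP.comap f (compat ζ f) hf (e ▸ h), e⟩

theorem finite_level (ζ : ℤ_[ℓ])
    (hfin : {η : G → ZMod (ℓ ^ 1) | WP U U' ρ (toZModPow 1 ζ) I η}.Finite) (k : ℕ) :
    {η : G → ZMod (ℓ ^ k) | WP U U' ρ (toZModPow k ζ) I η}.Finite := by
  induction k with
  | zero =>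
    have : Subsingleton (ZMod (ℓ ^ 0)) := by rw [pow_zero]; infer_instance
    exact Set.toFinite _
  | succ k ih =>
    obtain ⟨Φ, hΦ⟩ := exists_div (U := U) (U' := U') (ρ := ρ) (I := I) ζ k
    refine Set.Finite.of_finite_fibers (fun η g => red ℓ (Nat.le_add_left 1 k) (η g))
      (hfin.subset ?_) ?_
    · rintro _ ⟨η, hη, rfl⟩
      exact WP.map hη _ (compat ζ _)
    · rintro _ ⟨η₀, hη₀, rfl⟩
      refine ((ih.image Φ).image (· + η₀)).subset ?_
      rintro η ⟨hη, he⟩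
      obtain ⟨η', h1, h2⟩ := hΦ (η - η₀) (WP.sub hη hη₀) fun g => by
        have := congrFun (Set.mem_singleton_iff.1 he) g
        simp only at this
        rw [Pi.sub_apply, map_sub, this, sub_self]
      exact ⟨η - η₀, ⟨η', h1, h2⟩, sub_add_cancel _ _⟩

theorem toZModPow_eq_iff {n : ℕ} {x y : ℤ_[ℓ]} :
    toZModPow n x = toZModPow n y ↔ ‖x - y‖ ≤ (ℓ : ℝ) ^ (-n : ℤ) := by
  rw [norm_le_pow_iff_mem_span_pow, ← ker_toZModPow, RingHom.mem_ker, map_sub, sub_eq_zero]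

theorem continuous_toZModPow (n : ℕ) : Continuous (toZModPow n : ℤ_[ℓ] → ZMod (ℓ ^ n)) := by
  refine continuous_iff_continuousAt.2 fun x => ?_
  have hp : (0 : ℝ) < (ℓ : ℝ) ^ (-n : ℤ) := zpow_pos (by exact_mod_cast hℓ.out.pos) _
  refine (continuousAt_const (y := toZModPow n x)).congr ?_
  filter_upwards [Metric.closedBall_mem_nhds x hp] with y hy
  rw [mem_closedBall_iff_norm] at hy
  exact (toZModPow_eq_iff.2 hy).symm

theorem lim (ζ : ℤ_[ℓ]) (φ₀ : G)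
    (hfin : {η : G → ZMod (ℓ ^ 1) | WP U U' ρ (toZModPow 1 ζ) I η}.Finite)
    (hmany : ∀ k, ∃ T : Finset (G → ZMod (ℓ ^ k)), (∀ η ∈ T, WP U U' ρ (toZModPow k ζ) I η) ∧
      ℓ ^ (2 * k) ≤ T.card) :
    ∃ η : G → ℤ_[ℓ], IsChar U' η ∧ (∃ g ∈ U', η g ≠ 0) ∧ Equi U U' ρ ζ η ∧ η φ₀ = 0 := by
  classical
  set J : G → Prop := fun i => I i ∨ i = φ₀ with hJ
  set Z : ∀ k, Set (G → ZMod (ℓ ^ k)) := fun k => {η | WP U U' ρ (toZModPow k ζ) J η} with hZ
  have hZf : ∀ k, (Z k).Finite := finite_level ζ (hfin.subset fun η h =>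
    ⟨h.1, h.2.1, h.2.2.1, fun i hi => h.2.2.2 i (Or.inl hi)⟩)
  have hcard : ∀ k, ℓ ^ k ≤ (Z k).ncard := by
    intro k
    have : NeZero (ℓ ^ k) := ⟨pow_ne_zero _ hℓ.out.ne_zero⟩
    obtain ⟨T, hT, hc⟩ := hmany k
    obtain ⟨y, -, hy⟩ := Finset.exists_le_card_fiber_of_mul_le_card_of_maps_to
      (s := T) (t := Finset.univ) (f := fun η => η φ₀) (n := ℓ ^ k) (fun _ _ => Finset.mem_univ _)
      Finset.univ_nonempty (by rw [Finset.card_univ, ZMod.card, ← pow_add, ← two_mul]; exact hc)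
    obtain ⟨η₀, hη₀⟩ := Finset.card_pos.1 ((Nat.pos_of_ne_zero (NeZero.ne _)).trans_le hy)
    refine hy.trans ?_
    rw [← Set.ncard_coe_finset]
    refine Set.ncard_le_ncard_of_injOn (· - η₀) ?_ (fun a _ b _ h => sub_left_injective h) (hZf k)
    intro η hη
    obtain ⟨h1, h2⟩ := Finset.mem_filter.1 (Finset.mem_coe.1 hη)
    obtain ⟨h3, h4⟩ := Finset.mem_filter.1 hη₀
    have := WP.sub (hT η h1) (hT η₀ h3)
    refine ⟨this.1, this.2.1, this.2.2.1, ?_⟩
    rintro i (hi | rfl)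
    · exact this.2.2.2 i hi
    · rw [Pi.sub_apply, h2, h4, sub_self]
  set N : ∀ k, Set (G → ZMod (ℓ ^ (k + 1))) := fun k =>
    {η | η ∈ Z (k + 1) ∧ ∃ g, red ℓ (Nat.le_add_left 1 k) (η g) ≠ 0} with hN
  have hred : ∀ {j k : ℕ} (h : j ≤ k), ∀ η ∈ N k,
      (fun g => red ℓ (Nat.succ_le_succ h) (η g)) ∈ N j := by
    rintro j k h η ⟨h1, g, hg⟩
    exact ⟨WP.map h1 _ (compat ζ _), g, by rwa [red_red]⟩
  have hne : ∀ j, (N j).Nonempty := by
    intro j
    by_contra hcon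
    have hle : ∀ m, (Z (j + m)).ncard ≤ (Z j).ncard := by
      intro m
      induction m with
      | zero => exact le_rfl
      | succ m ih =>
        refine le_trans ?_ ih
        obtain ⟨Φ, hΦ⟩ := exists_div (U := U) (U' := U') (ρ := ρ) (I := J) ζ (j + m)
        refine le_trans (Set.ncard_le_ncard ?_ ((hZf _).image Φ)) (Set.ncard_image_le (hZf _))
        intro η hη
        refine hΦ η hη fun g => ?_
        by_contra h
        exact hcon ⟨_, hred (Nat.le_add_right j m) η ⟨hη, g, h⟩⟩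
    have h1 := (hcard (j + (Z j).ncard)).trans (hle _)
    have h2 : j + (Z j).ncard < ℓ ^ (j + (Z j).ncard) := Nat.lt_pow_self hℓ.out.one_lt
    omega
  set C : ℕ → Set (G → ℤ_[ℓ]) := fun j => {η | (fun g => toZModPow (j + 1) (η g)) ∈ N j} with hC
  have hCc : ∀ j, IsClosed (C j) := fun j =>
    (((hZf (j + 1)).subset fun η h => h.1).isClosed).preimage
      (continuous_pi fun g => (continuous_toZModPow (j + 1)).comp (continuous_apply g))
  obtain ⟨η, hη⟩ := IsCompact.nonempty_iInter_of_sequence_nonempty_isCompact_isClosed C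
    (fun j η h => by
      have := hred (Nat.le_succ j) _ h
      simp only [red_toZModPow] at this
      exact this)
    (fun j => by
      obtain ⟨a, ha⟩ := hne j
      have : NeZero (ℓ ^ (j + 1)) := ⟨pow_ne_zero _ hℓ.out.ne_zero⟩
      refine ⟨fun g => ((a g).val : ℤ_[ℓ]), ?_⟩
      show (fun g => toZModPow (j + 1) ((a g).val : ℤ_[ℓ])) ∈ N j
      simpa only [map_natCast, ZMod.natCast_zmod_val] using ha)
    (hCc 0).isCompact hCc
  have hW : ∀ j, WP U U' ρ (toZModPow (j + 1) ζ) J fun g => toZModPow (j + 1) (η g) :=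
    fun j => (Set.mem_iInter.1 hη j).1
  have hext : ∀ x y : ℤ_[ℓ], (∀ j, toZModPow (j + 1) x = toZModPow (j + 1) y) → x = y :=
    fun x y h => ext_of_toZModPow.1 fun n => by
      rw [← red_toZModPow (Nat.le_succ n), h n, red_toZModPow]
  refine ⟨η, ⟨fun x hx y hy => hext _ _ fun j => ?_, fun g hg => ?_⟩, ?_,
    fun δ hδ g hg => hext _ _ fun j => ?_, hext _ _ fun j => ?_⟩
  · rw [map_add]; exact (hW j).1.1 x hx y hy
  · refine Metric.tendsto_nhds.2 fun ε hε => ?_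
    obtain ⟨n, hn⟩ := exists_pow_neg_lt ℓ hε
    have h1 := (hW n).1.2 g hg
    rw [ContinuousWithinAt, nhds_discrete, Filter.tendsto_pure] at h1
    filter_upwards [h1] with g' hg'
    rw [dist_eq_norm]
    refine lt_of_le_of_lt (toZModPow_eq_iff.1 ?_) hn
    rw [← red_toZModPow (Nat.le_succ n), ← red_toZModPow (Nat.le_succ n) (η g)]
    exact congrArg _ hg'
  · obtain ⟨h1, g, hg⟩ := Set.mem_iInter.1 hη 0
    by_cases hU : g ∈ U'
    · refine ⟨g, hU, fun h => hg ?_⟩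
      simp [h]
    · exact absurd (by rw [h1.2.2.1 g hU, map_zero]) hg
  · rw [map_mul, map_pow]; exact (hW j).2.1 δ hδ g hg
  · rw [map_zero]; exact (hW j).2.2.2 φ₀ (Or.inr rfl)

end Crest.Agent.R18.W2
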